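import Mathlib

set_option linter.unusedSectionVars false

namespace Vale.Agent.P125

open scoped BigOperators

/-- `X` has Markov type `p` with constant `K` (Ball 1992): for every stationary reversible Markov
chain on a finite state space `S` (stationary law `μ`, transition matrix `P`), every `f : S → X`
and every time `t ≥ 1`,
`E ‖f(Z_t) - f(Z_0)‖^p ≤ K^p * t * E ‖f(Z_1) - f(Z_0)‖^p`.
The joint law of `(Z_0, Z_t)` is `μ i * (P ^ t) i j`. -/
def HasMarkovTypeWith (X : Type*) [NormedAddCommGroup X] (p K : ℝ) : Prop :=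
  ∀ (S : Type) [Fintype S] [DecidableEq S] (μ : S → ℝ) (P : Matrix S S ℝ),
    (∀ i, 0 ≤ μ i) → ∑ i, μ i = 1 → (∀ i j, 0 ≤ P i j) → (∀ i, ∑ j, P i j = 1) →
    (∀ i j, μ i * P i j = μ j * P j i) →
    ∀ (f : S → X) (t : ℕ), 1 ≤ t →
      ∑ i, ∑ j, μ i * (P ^ t) i j * ‖f j - f i‖ ^ p ≤
        K ^ p * (t : ℝ) * ∑ i, ∑ j, μ i * P i j * ‖f j - f i‖ ^ p

section Cube

variable {ι : Type} [Fintype ι] [DecidableEq ι]

/-- flip coordinate `a` -/
def flip (a : ι) (e : ι → Bool) : ι → Bool := Function.update e a (!e a)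

lemma flip_flip (a : ι) (e : ι → Bool) : flip a (flip a e) = e := by
  funext c
  by_cases h : c = a
  · subst h; simp [flip]
  · simp [flip, h]

lemma flip_apply_self (a : ι) (e : ι → Bool) : flip a e a = !e a := by simp [flip]

lemma flip_apply_ne {a c : ι} (h : c ≠ a) (e : ι → Bool) : flip a e c = e c := by
  simp [flip, h]

lemma eq_flip_comm (a : ι) (e e' : ι → Bool) : e' = flip a e ↔ e = flip a e' := by
  constructor
  · intro h; rw [h, flip_flip]
  · intro h; rw [h, flip_flip]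

/-- the transition matrix of the simple random walk on the cube -/
noncomputable def cubeP (ι : Type) [Fintype ι] [DecidableEq ι] : Matrix (ι → Bool) (ι → Bool) ℝ :=
  fun e e' => ∑ a : ι, if e' = flip a e then (1 / (Fintype.card ι : ℝ)) else 0

lemma cubeP_sum (e : ι → Bool) (g : (ι → Bool) → ℝ) :
    ∑ e', cubeP ι e e' * g e' = (1 / (Fintype.card ι : ℝ)) * ∑ a, g (flip a e) := by
  unfold cubeP
  simp_rw [Finset.sum_mul]
  rw [Finset.sum_comm, Finset.mul_sum]
  refine Finset.sum_congr rfl fun a _ => ?_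
  simp [ite_mul]

lemma cubeP_nonneg (e e' : ι → Bool) : 0 ≤ cubeP ι e e' := by
  unfold cubeP
  refine Finset.sum_nonneg fun a _ => ?_
  split_ifs
  · positivity
  · exact le_rfl

lemma cubeP_symm (e e' : ι → Bool) : cubeP ι e e' = cubeP ι e' e := by
  unfold cubeP
  refine Finset.sum_congr rfl fun a _ => ?_
  simp only [eq_flip_comm a e e']

lemma cubeP_row [Nonempty ι] (e : ι → Bool) : ∑ e', cubeP ι e e' = 1 := by
  have h := cubeP_sum e (fun _ => (1 : ℝ))
  simp only [mul_one] at h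
  rw [h]
  have : (Fintype.card ι : ℝ) ≠ 0 := by
    exact_mod_cast Fintype.card_ne_zero
  simp [this]

lemma sum_flip (a : ι) (g : (ι → Bool) → ℝ) : ∑ e, g (flip a e) = ∑ e, g e := by
  refine Fintype.sum_bijective (flip a) ?_ _ _ (fun _ => rfl)
  exact Function.Involutive.bijective (flip_flip a)

variable {X : Type*} [NormedAddCommGroup X] [NormedSpace ℝ X]

/-- the sign attached to a bit -/
def sgn (b : Bool) : ℝ := if b then -1 else 1

/-- the affine image of the cube -/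
noncomputable def cubeF (v : ι → X) (e : ι → Bool) : X := ∑ c, if e c then v c else 0

lemma cubeF_flip (v : ι → X) (a : ι) (e : ι → Bool) :
    cubeF v (flip a e) - cubeF v e = sgn (e a) • v a := by
  unfold cubeF
  rw [← Finset.sum_sub_distrib]
  have : ∀ c, ((if flip a e c then v c else 0) - (if e c then v c else 0) : X)
      = if c = a then sgn (e a) • v a else 0 := by
    intro c
    by_cases h : c = a
    · subst h
      rw [flip_apply_self]
      cases e c <;> simp [sgn]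
    · rw [flip_apply_ne h]
      simp [h]
  simp_rw [this]
  simp

lemma cubeF_flip_flip (v : ι → X) {a b : ι} (hab : a ≠ b) (e : ι → Bool) :
    cubeF v (flip b (flip a e)) - cubeF v e = sgn (e a) • v a + sgn (e b) • v b := by
  have h1 := cubeF_flip v b (flip a e)
  have h2 := cubeF_flip v a e
  rw [flip_apply_ne (Ne.symm hab)] at h1
  rw [← h1, ← h2]
  abel

lemma norm_sgn_smul (b : Bool) (x : X) : ‖sgn b • x‖ = ‖x‖ := by
  cases b <;> simp [sgn]

lemma sum_two_step (v : ι → X) (p : ℝ) {a b : ι} (hab : a ≠ b) :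
    ∑ e, ‖cubeF v (flip b (flip a e)) - cubeF v e‖ ^ p
      = (Fintype.card (ι → Bool) : ℝ) * ((‖v a + v b‖ ^ p + ‖v a - v b‖ ^ p) / 2) := by
  set T : (ι → Bool) → ℝ := fun e => ‖sgn (e a) • v a + sgn (e b) • v b‖ ^ p with hT
  have h0 : ∑ e, ‖cubeF v (flip b (flip a e)) - cubeF v e‖ ^ p = ∑ e, T e := by
    refine Finset.sum_congr rfl fun e _ => ?_
    rw [cubeF_flip_flip v hab]
  have h1 : ∑ e, T (flip a e) = ∑ e, T e := sum_flip a T
  have h2 : ∀ e, T e + T (flip a e) = ‖v a + v b‖ ^ p + ‖v a - v b‖ ^ p := by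
    intro e
    simp only [hT]
    rw [flip_apply_self, flip_apply_ne (Ne.symm hab)]
    have e2 : ‖-v a + -v b‖ = ‖v a + v b‖ := by
      rw [← norm_neg]; congr 1; abel
    have e3 : ‖v a + -v b‖ = ‖v a - v b‖ := by
      congr 1; abel
    have e4 : ‖v b + -v a‖ = ‖v a - v b‖ := by
      rw [← norm_neg]; congr 1; abel
    cases e a <;> cases e b <;> simp [sgn, e2, e3, e4, add_comm]
  have h3 : ∑ e, (T e + T (flip a e)) = (Fintype.card (ι → Bool) : ℝ) * (‖v a + v b‖ ^ p + ‖v a - v b‖ ^ p) := by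
    simp_rw [h2]
    rw [Finset.sum_const, Finset.card_univ, nsmul_eq_mul]
  rw [Finset.sum_add_distrib, h1] at h3
  rw [h0]
  linarith

lemma cubeP_sq_sum (e : ι → Bool) (g : (ι → Bool) → ℝ) :
    ∑ e', (cubeP ι ^ 2) e e' * g e'
      = (1 / (Fintype.card ι : ℝ)) ^ 2 * ∑ a, ∑ b, g (flip b (flip a e)) := by
  have h1 : ∀ e', (cubeP ι ^ 2) e e' * g e' = ∑ k, cubeP ι e k * (cubeP ι k e' * g e') := by
    intro e'
    rw [pow_two, Matrix.mul_apply, Finset.sum_mul]
    refine Finset.sum_congr rfl fun k _ => ?_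
    ring
  simp_rw [h1]
  rw [Finset.sum_comm]
  simp_rw [← Finset.mul_sum, cubeP_sum]
  simp_rw [← Finset.mul_sum]
  ring

/-- The Markov type inequality at time `t = 2` for the simple random walk on the Hamming cube
`{0,1}^ι`, mapped affinely to `X` by the vectors `v a`. -/
lemma cube_ineq [Nonempty ι] {p K : ℝ} (hp : 0 < p) (h : HasMarkovTypeWith X p K) (v : ι → X) :
    ∑ a, ∑ b, (if a = b then 0 else (‖v a + v b‖ ^ p + ‖v a - v b‖ ^ p) / 2)
      ≤ K ^ p * 2 * (Fintype.card ι : ℝ) * ∑ a, ‖v a‖ ^ p := by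
  classical
  set N : ℝ := (Fintype.card (ι → Bool) : ℝ) with hN
  set n : ℝ := (Fintype.card ι : ℝ) with hn
  have hNpos : 0 < N := by
    rw [hN]; exact_mod_cast Fintype.card_pos
  have hnpos : 0 < n := by
    rw [hn]; exact_mod_cast Fintype.card_pos
  have key := h (ι → Bool) (fun _ => 1 / N) (cubeP ι) (fun _ => by positivity)
    (by rw [Finset.sum_const, Finset.card_univ, nsmul_eq_mul, ← hN]; field_simp)
    cubeP_nonneg cubeP_row (fun i j => by rw [cubeP_symm i j]) (cubeF v) 2 (by norm_num)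
  -- left side
  have hL : ∑ i, ∑ j, 1 / N * (cubeP ι ^ 2) i j * ‖cubeF v j - cubeF v i‖ ^ p
      = (1 / n) ^ 2 * ∑ a, ∑ b, (if a = b then 0 else (‖v a + v b‖ ^ p + ‖v a - v b‖ ^ p) / 2) := by
    have h1 : ∀ i, ∑ j, 1 / N * (cubeP ι ^ 2) i j * ‖cubeF v j - cubeF v i‖ ^ p
        = 1 / N * ((1 / n) ^ 2 * ∑ a, ∑ b, ‖cubeF v (flip b (flip a i)) - cubeF v i‖ ^ p) := by
      intro i
      rw [← cubeP_sq_sum i (fun j => ‖cubeF v j - cubeF v i‖ ^ p), Finset.mul_sum]
      refine Finset.sum_congr rfl fun j _ => ?_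
      ring
    simp_rw [h1]
    rw [← Finset.mul_sum, ← Finset.mul_sum]
    have h2 : ∑ i, ∑ a, ∑ b, ‖cubeF v (flip b (flip a i)) - cubeF v i‖ ^ p
        = ∑ a, ∑ b, ∑ i, ‖cubeF v (flip b (flip a i)) - cubeF v i‖ ^ p := by
      rw [Finset.sum_comm]
      refine Finset.sum_congr rfl fun a _ => ?_
      rw [Finset.sum_comm]
    rw [h2]
    have h3 : ∀ a b, ∑ i, ‖cubeF v (flip b (flip a i)) - cubeF v i‖ ^ p
        = N * (if a = b then 0 else (‖v a + v b‖ ^ p + ‖v a - v b‖ ^ p) / 2) := by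
      intro a b
      by_cases hab : a = b
      · subst hab
        simp [flip_flip, Real.zero_rpow hp.ne']
      · rw [sum_two_step v p hab, ← hN, if_neg hab]
    simp_rw [h3]
    simp_rw [← Finset.mul_sum]
    field_simp
  -- right side
  have hR : ∑ i, ∑ j, 1 / N * cubeP ι i j * ‖cubeF v j - cubeF v i‖ ^ p
      = (1 / n) * ∑ a, ‖v a‖ ^ p := by
    have h1 : ∀ i, ∑ j, 1 / N * cubeP ι i j * ‖cubeF v j - cubeF v i‖ ^ p
        = 1 / N * ((1 / n) * ∑ a, ‖v a‖ ^ p) := by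
      intro i
      have := cubeP_sum i (fun j => ‖cubeF v j - cubeF v i‖ ^ p)
      simp only [cubeF_flip, norm_sgn_smul] at this
      rw [← this, Finset.mul_sum]
      refine Finset.sum_congr rfl fun j _ => ?_
      ring
    simp_rw [h1]
    rw [Finset.sum_const, Finset.card_univ, nsmul_eq_mul, ← hN]
    field_simp
  rw [hL, hR] at key
  have h5 : n ^ 2 * ((1 / n) ^ 2 * ∑ a, ∑ b, (if a = b then 0 else (‖v a + v b‖ ^ p + ‖v a - v b‖ ^ p) / 2))
      ≤ n ^ 2 * (K ^ p * ((2 : ℕ) : ℝ) * (1 / n * ∑ a, ‖v a‖ ^ p)) :=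
    mul_le_mul_of_nonneg_left key (by positivity)
  have h6 : n ^ 2 * ((1 / n) ^ 2 * ∑ a, ∑ b, (if a = b then 0 else (‖v a + v b‖ ^ p + ‖v a - v b‖ ^ p) / 2))
      = ∑ a, ∑ b, (if a = b then 0 else (‖v a + v b‖ ^ p + ‖v a - v b‖ ^ p) / 2) := by
    field_simp
  have h7 : n ^ 2 * (K ^ p * ((2 : ℕ) : ℝ) * (1 / n * ∑ a, ‖v a‖ ^ p))
      = K ^ p * 2 * n * ∑ a, ‖v a‖ ^ p := by
    push_cast
    field_simp
  rw [h6, h7] at h5
  exact h5

end Cube

section Two

variable {X : Type*} [NormedAddCommGroup X] [NormedSpace ℝ X]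

lemma two_vec_m {p K : ℝ} (hp : 0 < p) (h : HasMarkovTypeWith X p K) (x y : X) (m : ℕ)
    (hm : 0 < m) :
    (m : ℝ) ^ 2 * (‖x + y‖ ^ p + ‖x - y‖ ^ p)
      + ((m : ℝ) ^ 2 - m) * (2 ^ p * (‖x‖ ^ p + ‖y‖ ^ p) / 2)
      ≤ 4 * K ^ p * (m : ℝ) ^ 2 * (‖x‖ ^ p + ‖y‖ ^ p) := by
  classical
  have : Nonempty (Fin m × Bool) := ⟨(⟨0, hm⟩, true)⟩
  have key := cube_ineq (ι := Fin m × Bool) hp h (fun a => if a.2 then x else y)
  set Q : X → X → ℝ := fun u w => (‖u + w‖ ^ p + ‖u - w‖ ^ p) / 2 with hQ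
  have hsplit : ∀ v : Fin m × Bool → X,
      ∑ a, ∑ b, (if a = b then 0 else Q (v a) (v b))
        = ∑ a, ∑ b, Q (v a) (v b) - ∑ a, Q (v a) (v a) := by
    intro v
    rw [← Finset.sum_sub_distrib]
    refine Finset.sum_congr rfl fun a _ => ?_
    have : ∀ b, (if a = b then 0 else Q (v a) (v b))
        = Q (v a) (v b) - (if a = b then Q (v a) (v b) else 0) := by
      intro b; split_ifs <;> simp
    simp_rw [this]
    rw [Finset.sum_sub_distrib]
    simp
  have hxx : ∀ u : X, Q u u = 2 ^ p * ‖u‖ ^ p / 2 := by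
    intro u
    simp only [hQ]
    rw [sub_self, norm_zero, Real.zero_rpow hp.ne', ← two_smul ℝ u, norm_smul,
      Real.mul_rpow (by positivity) (norm_nonneg u)]
    simp
  have hyx : Q y x = Q x y := by
    simp only [hQ]
    rw [add_comm y x, norm_sub_rev y x]
  rw [hsplit] at key
  simp only [Fintype.sum_prod_type, Fintype.sum_bool, Finset.sum_const, Finset.card_univ,
    Fintype.card_fin, nsmul_eq_mul, if_true, Bool.false_eq_true, if_false, Fintype.card_prod,
    Fintype.card_bool, hxx, hyx] at key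
  simp only [hQ] at key
  push_cast at key
  nlinarith [key]

/-- **Main inequality.** Markov type `p` with constant `K` forces a Clarkson / von Neumann-Jordan
type inequality with the explicit constant `4 K^p - 2^(p-1)`. -/
theorem clarkson_of_markovType {p K : ℝ} (hp : 0 < p) (h : HasMarkovTypeWith X p K) (x y : X) :
    ‖x + y‖ ^ p + ‖x - y‖ ^ p ≤ (4 * K ^ p - 2 ^ p / 2) * (‖x‖ ^ p + ‖y‖ ^ p) := by
  by_contra hcon
  rw [not_le] at hcon
  set B := ‖x + y‖ ^ p + ‖x - y‖ ^ p with hB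
  set A := ‖x‖ ^ p + ‖y‖ ^ p with hA
  set δ := B - (4 * K ^ p - 2 ^ p / 2) * A with hδ
  have hδpos : 0 < δ := by rw [hδ]; linarith
  set C := 2 ^ p * A / 2 with hC
  obtain ⟨m, hm⟩ := exists_nat_gt (C / δ)
  have hA0 : 0 ≤ A := by rw [hA]; positivity
  have hC0 : 0 ≤ C := by rw [hC]; positivity
  have hmpos : (0 : ℝ) < m := lt_of_le_of_lt (by positivity) hm
  have hm' : 0 < m := by exact_mod_cast hmpos
  have key := two_vec_m hp h x y m hm'
  rw [← hB, ← hA] at key
  have h1 : C < m * δ := by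
    rw [div_lt_iff₀ hδpos] at hm; exact hm
  -- key : m^2 B + (m^2 - m) C ≤ 4 K^p m^2 A
  have h2 : (m : ℝ) ^ 2 * δ ≤ m * C := by
    rw [hδ]; nlinarith [key]
  have h3 : (m : ℝ) * δ ≤ C := by
    have : (m : ℝ) * ((m : ℝ) * δ) ≤ m * C := by nlinarith [h2]
    exact le_of_mul_le_mul_left this hmpos
  linarith

end Two

end Vale.Agent.P125
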